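import Vale.Agent.P202.Final

/-! Lech's conjecture for local rings containing a field. -/

namespace Vale.Agent.Results.P202.EqualChar

open IsLocalRing Filter Topology

universe u v

theorem result (K : Type v) [Field K] (R S : Type u)
    [CommRing R] [IsLocalRing R] [IsNoetherianRing R] [Algebra K R]
    [CommRing S] [IsLocalRing S] [IsNoetherianRing S]
    [Algebra R S] [IsLocalHom (algebraMap R S)] [Module.Flat R S]
    (d D : ℕ) (hd : ringKrullDim R = d) (hD : ringKrullDim S = D) :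
    (∀ N : ℕ, Module.length R (R ⧸ maximalIdeal R ^ N) ≠ ⊤) ∧
    (∀ N : ℕ, Module.length S (S ⧸ maximalIdeal S ^ N) ≠ ⊤) ∧
    ∃ eR eS : ℝ,
      Tendsto (fun N : ℕ => (d.factorial : ℝ) *
        ((Module.length R (R ⧸ maximalIdeal R ^ N)).toNat : ℝ) / (N : ℝ) ^ d) atTop (𝓝 eR) ∧
      Tendsto (fun N : ℕ => (D.factorial : ℝ) *
        ((Module.length S (S ⧸ maximalIdeal S ^ N)).toNat : ℝ) / (N : ℝ) ^ D) atTop (𝓝 eS) ∧
      eR ≤ eS := by
  obtain ⟨eR, heR⟩ := Vale.Agent.P202.exists_isMult R hd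
  obtain ⟨eS, heS⟩ := Vale.Agent.P202.exists_isMult S hD
  exact ⟨Vale.Agent.P202.length_quot_pow_ne_top (t := 1) (by simp),
    Vale.Agent.P202.length_quot_pow_ne_top (t := 1) (by simp), eR, eS, heR, heS,
    Vale.Agent.P202.lech (Vale.Agent.P202.eqChar_of_field K (algebraMap K R))
      d D eR eS hd hD heR heS⟩

end Vale.Agent.Results.P202.EqualChar
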